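import Vale.Agent.P034.Frag

open Finset

namespace Vale.Agent.P034

variable {X : Type} [Fintype X] [DecidableEq X]

/-- Encoding relation. -/
def Enc (F : Finset (Finset X)) (lam : Finset X → X → ℝ) (J : ℕ) (w : X → ℕ) (U : Finset X)
    (w' : X → ℕ) : Prop :=
  U.Nonempty ∧ (∀ x ∉ U, w' x = w x) ∧ (∀ x ∈ U, w' x < w x) ∧
    (∃ H' θ', Wit F lam J w' (fun k => (U.filter fun x => w' x ≤ k ∧ k < w x).card) U.card H' θ') ∧
    ∀ H' θ', Wit F lam J w' (fun k => (U.filter fun x => w' x ≤ k ∧ k < w x).card) U.card H' θ' →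
      ∀ x ∈ U, x ∈ BB lam H' (θ' (w' x))

open Classical in
/-- Canonical heavy sets. -/
noncomputable def Bcan (F : Finset (Finset X)) (lam : Finset X → X → ℝ) (J : ℕ) (w' : X → ℕ)
    (t : ℕ → ℕ) (T : ℕ) (j : ℕ) : Finset X :=
  if h : ∃ p : Finset X × (ℕ → ℝ), Wit F lam J w' t T p.1 p.2 then BB lam h.choose.1 (h.choose.2 j)
  else ∅

omit [Fintype X] in
lemma Bcan_card {F : Finset (Finset X)} {lam : Finset X → X → ℝ} {J : ℕ} {w' : X → ℕ}
    {t : ℕ → ℕ} {T j : ℕ} (hj : j < J) : (Bcan F lam J w' t T j).card ≤ 2 ^ j * T := by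
  unfold Bcan
  split_ifs with h
  · exact (h.choose_spec.2.2.2 j hj).1
  · simp

omit [Fintype X] in
lemma Enc.mem {F : Finset (Finset X)} {lam : Finset X → X → ℝ} {J : ℕ} {w w' : X → ℕ}
    {U : Finset X} (h : Enc F lam J w U w') {x : X} (hx : x ∈ U) :
    x ∈ Bcan F lam J w' (fun k => (U.filter fun x => w' x ≤ k ∧ k < w x).card) U.card (w' x) := by
  obtain ⟨-, -, -, ⟨H', θ', h1⟩, h2⟩ := h
  have h3 : ∃ p : Finset X × (ℕ → ℝ), Wit F lam J w'
    (fun k => (U.filter fun x => w' x ≤ k ∧ k < w x).card) U.card p.1 p.2 := ⟨(H', θ'), h1⟩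
  unfold Bcan
  rw [dif_pos h3]
  exact h2 _ _ h3.choose_spec x hx

lemma orderings (U : Finset X) {T : ℕ} (hU : U.card = T) :
    T.factorial ≤ (univ.filter fun x : Fin T → X =>
      Function.Injective x ∧ univ.image x = U).card := by
  have e0 : Fin T ≃ U := (U.equivFinOfCardEq hU).symm
  have h1 : Fintype.card (Fin T ≃ U) = T.factorial := by
    rw [Fintype.card_equiv e0, Fintype.card_fin]
  rw [← h1, ← card_univ]
  refine card_le_card_of_injOn (fun e r => (e r : X)) (fun e _ => ?_) fun e _ e' _ h => ?_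
  · simp only [coe_filter, mem_univ, true_and, Set.mem_setOf_eq]
    refine ⟨Subtype.val_injective.comp e.injective, ?_⟩
    ext y
    simp only [mem_image, mem_univ, true_and]
    exact ⟨by rintro ⟨r, rfl⟩; exact (e r).2, fun hy => ⟨e.symm ⟨y, hy⟩, by simp⟩⟩
  · ext r
    exact congrFun h r

lemma count_T {F : Finset (Finset X)} {lam : Finset X → X → ℝ} {J : ℕ} {π : ℕ → ℝ}
    (hπ : ∀ i, 0 ≤ π i) (hπ0 : ∀ j < J, 0 < π j) (hπ1 : ∑ i ∈ range (J + 1), π i = 1) {r : ℝ}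
    (hr : 0 ≤ r) (T : ℕ) (P : Finset ((X → ℕ) × Finset X)) (W : (X → ℕ) × Finset X → X → ℕ)
    (hP : ∀ p ∈ P, (∀ x, p.1 x ≤ J) ∧ p.2.card = T ∧ Enc F lam J p.1 p.2 (W p)) :
    T.factorial * ∑ p ∈ P, (∏ x, π (p.1 x)) * r ^ T
      ≤ (T * ∑ j ∈ range J, r * 2 ^ j / π j) ^ T := by
  classical
  set D : Finset (((X → ℕ) × Finset X) × (Fin T → X)) :=
    (P ×ˢ univ).filter fun d => Function.Injective d.2 ∧ univ.image d.2 = d.1.2 with hD
  set tt : (Fin T → ℕ × ℕ) → ℕ → ℕ := fun s k =>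
    (univ.filter fun i => (s i).1 ≤ k ∧ k < (s i).2).card with htt
  set Ω := Fintype.piFinset fun _ : X => range (J + 1) with hΩ
  set S := Fintype.piFinset fun _ : Fin T => range J ×ˢ range (J + 1) with hS
  set E : Finset (((X → ℕ) × (Fin T → ℕ × ℕ)) × (Fin T → X)) :=
    ((Ω ×ˢ S) ×ˢ univ).filter fun e => ∀ i, e.2 i ∈ Bcan F lam J e.1.1 (tt e.1.2) T (e.1.2 i).1
    with hE
  set g : ((X → ℕ) × (Fin T → ℕ × ℕ)) → ℝ := fun e =>
    (∏ x, π (e.1 x)) * ∏ i, (π (e.2 i).2 * (r / π (e.2 i).1)) with hg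
  have hg0 : ∀ e, 0 ≤ g e := fun e => mul_nonneg (prod_nonneg fun _ _ => hπ _)
    (prod_nonneg fun _ _ => mul_nonneg (hπ _) (div_nonneg hr (hπ _)))
  set φ : ((X → ℕ) × Finset X) × (Fin T → X) → ((X → ℕ) × (Fin T → ℕ × ℕ)) × (Fin T → X) :=
    fun d => ((W d.1, fun i => (W d.1 (d.2 i), d.1.1 (d.2 i))), d.2) with hφ
  have s1 : T.factorial * ∑ p ∈ P, (∏ x, π (p.1 x)) * r ^ T
      ≤ ∑ d ∈ D, (∏ x, π (d.1.1 x)) * r ^ T := by
    rw [hD, sum_filter, sum_product, mul_sum]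
    refine sum_le_sum fun p hp => ?_
    rw [← sum_filter]
    dsimp only
    rw [sum_const, nsmul_eq_mul]
    refine mul_le_mul_of_nonneg_right (by exact_mod_cast orderings p.2 (hP p hp).2.1) ?_
    exact mul_nonneg (prod_nonneg fun _ _ => hπ _) (pow_nonneg hr _)
  have s2 : ∀ d ∈ D, (∏ x, π (d.1.1 x)) * r ^ T = g (φ d).1 := by
    rintro ⟨⟨w, U⟩, x⟩ hd
    obtain ⟨h1, h2, h3⟩ := mem_filter.1 hd
    obtain ⟨a1, a2, a3⟩ := hP _ (mem_product.1 h1).1
    simp only at h2 h3 a1 a2 a3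
    simp only [hg, hφ]
    rw [← prod_image (s := univ) (g := x) (f := fun y => π (w y) * (r / π (W (w, U) y)))
      (fun i _ j _ h => h2 h), h3, ← prod_mul_prod_compl U, ← prod_mul_prod_compl U,
      prod_congr rfl (s₁ := Uᶜ) (f := fun y => π (W (w, U) y)) (g := fun y => π (w y))
        fun y hy => by rw [a3.2.1 y (mem_compl.1 hy)], mul_right_comm, mul_right_comm _ _ (∏ y ∈ U, _),
      ← a2, ← prod_const, ← prod_mul_distrib, ← prod_mul_distrib]
    congr 1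
    refine prod_congr rfl fun y hy => ?_
    have := (hπ0 _ ((a3.2.2.1 y hy).trans_le (a1 y))).ne'
    field_simp
  have s3 : Set.InjOn φ D := by
    rintro ⟨⟨w, U⟩, x⟩ hd ⟨⟨w2, U2⟩, x2⟩ hd2 h
    obtain ⟨h1, -, h3⟩ := mem_filter.1 hd
    obtain ⟨k1, -, k3⟩ := mem_filter.1 hd2
    obtain ⟨-, -, a3⟩ := hP _ (mem_product.1 h1).1
    obtain ⟨-, -, b3⟩ := hP _ (mem_product.1 k1).1
    simp only [hφ, Prod.mk.injEq] at h h3 k3 a3 b3
    obtain ⟨⟨e1, e2⟩, rfl⟩ := h
    obtain rfl : U = U2 := h3.symm.trans k3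
    have : w = w2 := by
      funext y
      by_cases hy : y ∈ U
      · rw [← h3] at hy
        obtain ⟨i, -, rfl⟩ := mem_image.1 hy
        exact (Prod.mk.inj (congrFun e2 i)).2
      · rw [← a3.2.1 y hy, ← b3.2.1 y hy, e1]
    rw [this]
  have s4 : D.image φ ⊆ E := by
    intro e he
    obtain ⟨⟨⟨w, U⟩, x⟩, hd, rfl⟩ := mem_image.1 he
    obtain ⟨h1, h2, h3⟩ := mem_filter.1 hd
    obtain ⟨a1, a2, a3⟩ := hP _ (mem_product.1 h1).1
    simp only at h2 h3 a1 a2 a3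
    have hx : ∀ i, x i ∈ U := fun i => h3 ▸ mem_image_of_mem x (mem_univ i)
    refine mem_filter.2 ⟨mem_product.2 ⟨mem_product.2 ⟨Fintype.mem_piFinset.2 fun y => ?_,
      Fintype.mem_piFinset.2 fun i => mem_product.2 ⟨mem_range.2 ?_, mem_range.2 ?_⟩⟩,
      mem_univ _⟩, fun i => ?_⟩
    · have := a1 y
      simp only [hφ, mem_range]
      by_cases hy : y ∈ U
      · have := a3.2.2.1 y hy; omega
      · rw [a3.2.1 y hy]; omega
    · exact (a3.2.2.1 _ (hx i)).trans_le (a1 _)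
    · exact Nat.lt_succ_of_le (a1 _)
    · have := a3.mem (hx i)
      rw [a2] at this
      convert this using 2
      funext k
      simp only [htt, hφ]
      rw [← h3, filter_image, card_image_of_injective _ h2]
  have s5 : ∑ e ∈ E, g e.1 ≤ (T * ∑ j ∈ range J, r * 2 ^ j / π j) ^ T := by
    rw [hE, sum_filter, sum_product]
    have b1 : ∀ e ∈ Ω ×ˢ S, (∑ x : Fin T → X,
        if ∀ i, x i ∈ Bcan F lam J e.1 (tt e.2) T (e.2 i).1 then g e else 0) ≤
        (∏ x, π (e.1 x)) * ∏ i, (π (e.2 i).2 * (T * (r * 2 ^ (e.2 i).1 / π (e.2 i).1))) := by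
      intro e he
      rw [← sum_filter, sum_const, nsmul_eq_mul]
      have : (univ.filter fun x : Fin T → X => ∀ i, x i ∈ Bcan F lam J e.1 (tt e.2) T (e.2 i).1)
          = Fintype.piFinset fun i => Bcan F lam J e.1 (tt e.2) T (e.2 i).1 := by
        ext x; simp
      rw [this, Fintype.card_piFinset, hg, mul_left_comm]
      refine mul_le_mul_of_nonneg_left ?_ (prod_nonneg fun _ _ => hπ _)
      push_cast
      rw [← prod_mul_distrib]
      refine prod_le_prod (fun i _ => mul_nonneg (by positivity)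
        (mul_nonneg (hπ _) (div_nonneg hr (hπ _)))) fun i _ => ?_
      have hj := mem_range.1 (mem_product.1 (Fintype.mem_piFinset.1 (mem_product.1 he).2 i)).1
      have b2 : ((Bcan F lam J e.1 (tt e.2) T (e.2 i).1).card : ℝ) ≤ 2 ^ (e.2 i).1 * T := by
        exact_mod_cast Bcan_card hj
      refine (mul_le_mul_of_nonneg_right b2
        (mul_nonneg (hπ _) (div_nonneg hr (hπ _)))).trans (le_of_eq ?_)
      ring
    refine (sum_le_sum b1).trans (le_of_eq ?_)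
    rw [sum_product]
    simp only [← mul_sum]
    rw [← sum_mul, hΩ, ← prod_univ_sum (fun _ : X => range (J + 1)) fun _ i => π i, hS,
      ← prod_univ_sum (fun _ : Fin T => range J ×ˢ range (J + 1))
        fun _ s => π s.2 * (T * (r * 2 ^ s.1 / π s.1))]
    simp only [hπ1, prod_const_one, one_mul, prod_const, card_univ, Fintype.card_fin, sum_product,
      ← sum_mul, mul_sum]
  refine s1.trans (le_trans ?_ s5)
  rw [sum_congr rfl s2, ← sum_image (f := fun e => g e.1) s3]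
  exact sum_le_sum_of_subset_of_nonneg s4 fun _ _ _ => hg0 _

lemma count_all {F : Finset (Finset X)} {lam : Finset X → X → ℝ} {J : ℕ} {π : ℕ → ℝ}
    (hπ : ∀ i, 0 ≤ π i) (hπ0 : ∀ j < J, 0 < π j) (hπ1 : ∑ i ∈ range (J + 1), π i = 1) {r : ℝ}
    (hr : 0 ≤ r) (hA : ∑ j ∈ range J, r * 2 ^ j / π j ≤ 1 / 12)
    (P : Finset ((X → ℕ) × Finset X)) (W : (X → ℕ) × Finset X → X → ℕ)
    (hP : ∀ p ∈ P, (∀ x, p.1 x ≤ J) ∧ Enc F lam J p.1 p.2 (W p)) :
    ∑ p ∈ P, (∏ x, π (p.1 x)) * r ^ p.2.card ≤ 1 / 3 := by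
  rw [← sum_fiberwise_of_maps_to (t := Ico 1 (Fintype.card X + 1)) (g := fun p => p.2.card)
    fun p hp => mem_Ico.2 ⟨(hP p hp).2.1.card_pos, Nat.lt_succ_of_le (card_le_univ _)⟩]
  have h1 : ∀ T ∈ Ico 1 (Fintype.card X + 1),
      ∑ p ∈ P with p.2.card = T, (∏ x, π (p.1 x)) * r ^ p.2.card ≤ (1 / 4) ^ T := by
    intro T _
    rw [sum_congr rfl (g := fun p => (∏ x, π (p.1 x)) * r ^ T) fun p hp => by
      rw [(mem_filter.1 hp).2]]
    have h2 := count_T hπ hπ0 hπ1 hr T (P.filter fun p => p.2.card = T) W fun p hp =>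
      ⟨(hP p (mem_filter.1 hp).1).1, (mem_filter.1 hp).2, (hP p (mem_filter.1 hp).1).2⟩
    have hf : (0 : ℝ) < T.factorial := by exact_mod_cast T.factorial_pos
    refine le_of_mul_le_mul_left (h2.trans ?_) hf
    have h3 := Real.pow_div_factorial_le_exp (T : ℝ) (by positivity) T
    rw [div_le_iff₀ hf] at h3
    have h4 : Real.exp T ≤ 3 ^ T := by
      rw [← Real.exp_one_pow]
      exact pow_le_pow_left₀ (Real.exp_pos _).le (by linarith [Real.exp_one_lt_d9]) T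
    have h5 : 0 ≤ ∑ j ∈ range J, r * 2 ^ j / π j :=
      sum_nonneg fun j _ => div_nonneg (by positivity) (hπ j)
    calc _ ≤ ((T : ℝ) * (1 / 12)) ^ T := by gcongr
      _ = (T : ℝ) ^ T * (1 / 12) ^ T := mul_pow _ _ _
      _ ≤ (3 ^ T * T.factorial) * (1 / 12) ^ T := by
          gcongr; exact h3.trans (by gcongr)
      _ = T.factorial * (3 * (1 / 12)) ^ T := by rw [mul_pow]; ring
      _ = _ := by norm_num
  refine (sum_le_sum h1).trans ((geom_sum_Ico_le_of_lt_one (by norm_num) (by norm_num)).trans ?_)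
  norm_num

end Vale.Agent.P034
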