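import Mathlib

open Finset

namespace Vale.Agent.P034

variable {X : Type} [Fintype X] [DecidableEq X]

/-- Heavy set. -/
noncomputable def BB (lam : Finset X → X → ℝ) (H : Finset X) (t : ℝ) : Finset X :=
  H.filter fun x => t < lam H x

/-- Truncated surplus at level `k`. -/
noncomputable def phi (lam : Finset X → X → ℝ) (H : Finset X) (w : X → ℕ) (k : ℕ) (t : ℝ) : ℝ :=
  ∑ x ∈ H, min (lam H x) t * ((1 / 2) ^ k - if k < w x then 1 else 0)

/-- Valid threshold structures. -/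
def Valid (F : Finset (Finset X)) (lam : Finset X → X → ℝ) (J : ℕ) (w : X → ℕ) (H : Finset X)
    (θ : ℕ → ℝ) : Prop :=
  H ∈ F ∧ Antitone θ ∧ (∀ k, 0 ≤ θ k) ∧ ∀ k < J, 0 ≤ phi lam H w k (θ k)

/-- Crossing set. -/
noncomputable def CC (lam : Finset X → X → ℝ) (w : X → ℕ) (H : Finset X) (θ : ℕ → ℝ) (k : ℕ) :
    Finset X := (BB lam H (θ k)).filter fun x => k < w x

/-- Fragment. -/
noncomputable def UU (lam : Finset X → X → ℝ) (J : ℕ) (w : X → ℕ) (H : Finset X) (θ : ℕ → ℝ) :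
    Finset X := (range J).biUnion (CC lam w H θ)

/-- Witnesses for a modified configuration. -/
def Wit (F : Finset (Finset X)) (lam : Finset X → X → ℝ) (J : ℕ) (w' : X → ℕ) (t : ℕ → ℕ) (T : ℕ)
    (H : Finset X) (θ : ℕ → ℝ) : Prop :=
  H ∈ F ∧ Antitone θ ∧ (∀ k, 0 ≤ θ k) ∧ ∀ k < J, (BB lam H (θ k)).card ≤ 2 ^ k * T ∧
    (∀ x ∈ BB lam H (θ k), w' x ≤ k) ∧ t k * θ k ≤ phi lam H w' k (θ k)

omit [Fintype X] [DecidableEq X] in
lemma BB_mono {lam : Finset X → X → ℝ} {H : Finset X} {s t : ℝ} (h : s ≤ t) :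
    BB lam H t ⊆ BB lam H s := fun _ hx =>
  mem_filter.2 ⟨(mem_filter.1 hx).1, h.trans_lt (mem_filter.1 hx).2⟩

lemma phi_diff (lam : Finset X → X → ℝ) (H : Finset X) {w w' : X → ℕ} (h : ∀ x, w' x ≤ w x)
    (k : ℕ) (t : ℝ) : phi lam H w' k t = phi lam H w k t
      + ∑ x ∈ (univ.filter fun x => w' x ≤ k ∧ k < w x) ∩ H, min (lam H x) t := by
  rw [inter_comm, ← filter_mem_eq_inter, sum_filter, phi, phi, ← sum_add_distrib]
  refine sum_congr rfl fun x _ => ?_
  have := h x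
  by_cases h1 : k < w' x
  · have h2 : k < w x := by omega
    simp [h1, h2, not_le.2 h1]
  · by_cases h2 : k < w x
    · simp [h1, h2, not_lt.1 h1]; ring
    · simp [h1, h2]

omit [Fintype X] in
lemma raise {F : Finset (Finset X)} {lam : Finset X → X → ℝ} {J : ℕ} {w : X → ℕ} {H : Finset X}
    {θ : ℕ → ℝ} (hv : Valid F lam J w H θ) {k : ℕ} (hne : (BB lam H (θ k)).Nonempty)
    (hk : ∀ j, j + 1 = k → (BB lam H (θ j)).card < (BB lam H (θ k)).card)
    (hs : 2 ^ k * (CC lam w H θ k).card ≤ (BB lam H (θ k)).card) :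
    ∃ θ', Valid F lam J w H θ' ∧ (∀ j, θ j ≤ θ' j) ∧
      (BB lam H (θ' k)).card < (BB lam H (θ k)).card := by
  obtain ⟨x0, hx0, hmin⟩ := (BB lam H (θ k)).exists_min_image (lam H) hne
  have h0 : θ k < lam H x0 := (mem_filter.1 hx0).2
  have hle : ∀ j, θ j ≤ Function.update θ k (lam H x0) j := by
    intro j
    by_cases h : j = k
    · subst h; simpa using h0.le
    · simp [h]
  refine ⟨Function.update θ k (lam H x0), ⟨hv.1, ?_, fun j => (hv.2.2.1 j).trans (hle j), ?_⟩,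
    hle, ?_⟩
  · refine antitone_nat_of_succ_le fun j => ?_
    by_cases h1 : j + 1 = k
    · have h2 : j ≠ k := by omega
      rw [h1, Function.update_self, Function.update_of_ne h2]
      obtain ⟨y, hy, hy'⟩ := exists_mem_notMem_of_card_lt_card (hk j h1)
      refine (hmin y hy).trans (not_lt.1 fun h => hy' (mem_filter.2 ⟨(mem_filter.1 hy).1, h⟩))
    · rw [Function.update_of_ne h1]
      exact (hv.2.1 (Nat.le_succ j)).trans (hle j)
  · intro j hj
    by_cases h : j = k
    swap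
    · rw [Function.update_of_ne h]; exact hv.2.2.2 j hj
    subst h
    rw [Function.update_self]
    have e : phi lam H w j (lam H x0) = phi lam H w j (θ j) + (lam H x0 - θ j) *
        ((1 / 2) ^ j * (BB lam H (θ j)).card - (CC lam w H θ j).card) := by
      have e1 : ((1 / 2 : ℝ) ^ j * (BB lam H (θ j)).card - (CC lam w H θ j).card)
          = ∑ x ∈ H, if θ j < lam H x then ((1 / 2) ^ j - if j < w x then 1 else 0) else 0 := by
        rw [← sum_filter, sum_sub_distrib, sum_const, sum_boole, nsmul_eq_mul, mul_comm]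
        rfl
      rw [e1, phi, phi, mul_sum, ← sum_add_distrib]
      refine sum_congr rfl fun x hx => ?_
      by_cases h1 : θ j < lam H x
      · rw [if_pos h1, min_eq_right h1.le, min_eq_right (hmin x (mem_filter.2 ⟨hx, h1⟩))]; ring
      · rw [if_neg h1, min_eq_left (not_lt.1 h1), min_eq_left ((not_lt.1 h1).trans h0.le)]; ring
    rw [e]
    refine add_nonneg (hv.2.2.2 j hj) (mul_nonneg (by linarith) ?_)
    have : (2 : ℝ) ^ j * (CC lam w H θ j).card ≤ (BB lam H (θ j)).card := by exact_mod_cast hs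
    rw [sub_nonneg, one_div, inv_pow, le_inv_mul_iff₀ (by positivity)]
    exact this
  · rw [Function.update_self]
    refine card_lt_card ⟨BB_mono h0.le, fun h => ?_⟩
    exact lt_irrefl _ (mem_filter.1 (h hx0)).2

/-- Existence of a minimal fragment with its encoding. -/
theorem fragment {F : Finset (Finset X)} {lam : Finset X → X → ℝ} (hl : ∀ H x, 0 ≤ lam H x)
    {J : ℕ} {w : X → ℕ} (hw : ∀ x, w x ≤ J)
    (hbad : ∀ H ∈ F, ∃ k < J, ∑ x ∈ H, lam H x * ((1 / 2) ^ k - if k < w x then 1 else 0) < 0)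
    {H : Finset X} (hH : H ∈ F) :
    ∃ (U : Finset X) (w' : X → ℕ), U ⊆ H ∧ U.Nonempty ∧ (∀ x ∉ U, w' x = w x) ∧
      (∀ x ∈ U, w' x < w x) ∧
      (∃ H' θ', Wit F lam J w' (fun k => (U.filter fun x => w' x ≤ k ∧ k < w x).card) U.card H' θ') ∧
      ∀ H' θ', Wit F lam J w' (fun k => (U.filter fun x => w' x ≤ k ∧ k < w x).card) U.card H' θ' →
        ∀ x ∈ U, x ∈ BB lam H' (θ' (w' x)) := by
  classical
  set S : Set (Finset X × (ℕ → ℝ)) := {p | Valid F lam J w p.1 p.2 ∧ UU lam J w p.1 p.2 ⊆ H}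
  have hS : S.Nonempty := by
    refine ⟨(H, fun _ => 0), ⟨hH, antitone_const, fun _ => le_rfl, fun k _ => le_of_eq ?_⟩, ?_⟩
    · exact (sum_eq_zero fun x _ => by rw [min_eq_right (hl H x), zero_mul]).symm
    · exact biUnion_subset.2 fun k _ => (filter_subset _ _).trans (filter_subset _ _)
  set Ψ : Finset X × (ℕ → ℝ) → ℕ := fun p => ∑ k ∈ range J, (CC lam w p.1 p.2 k).card with hΨ
  set M : Finset X × (ℕ → ℝ) → ℕ := fun p => ∑ k ∈ range J, (BB lam p.1 (p.2 k)).card with hM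
  obtain ⟨p0, hp0, hmin0⟩ := (measure Ψ).wf.has_min S hS
  obtain ⟨⟨G, θ⟩, ⟨⟨hv, hU⟩, hΨ0⟩, hmin⟩ :=
    (measure M).wf.has_min {p | p ∈ S ∧ Ψ p = Ψ p0} ⟨p0, hp0, rfl⟩
  have m1 : ∀ p ∈ S, Ψ (G, θ) ≤ Ψ p := fun p hp => hΨ0 ▸ not_lt.1 (hmin0 p hp)
  simp only at hv hU
  set U := UU lam J w G θ with hUdef
  have hCU : ∀ k < J, CC lam w G θ k ⊆ U := fun k hk =>
    subset_biUnion_of_mem (CC lam w G θ) (mem_range.2 hk)
  have hsize : ∀ k < J, (BB lam G (θ k)).card ≤ 2 ^ k * U.card := by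
    intro k
    induction k using Nat.strong_induction_on with
    | _ k ih =>
    intro hk
    by_contra hc
    push Not at hc
    obtain ⟨θ', v1, v2, v3⟩ := raise hv (k := k) (card_pos.1 (by omega)) (fun j hj => by
      have := ih j (by omega) (by omega)
      have h2 : 2 ^ j * U.card ≤ 2 ^ k * U.card :=
        Nat.mul_le_mul_right _ (Nat.pow_le_pow_right (by norm_num) (by omega))
      omega) ((Nat.mul_le_mul_left _ (card_le_card (hCU k hk))).trans hc.le)
    have hC : ∀ j, CC lam w G θ' j ⊆ CC lam w G θ j := fun j =>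
      filter_subset_filter _ (BB_mono (v2 j))
    have hS' : (G, θ') ∈ S := ⟨v1, (biUnion_mono fun j _ => hC j).trans hU⟩
    refine hmin (G, θ') ⟨hS', ?_⟩ ?_
    · rw [← hΨ0]
      exact le_antisymm (sum_le_sum fun j _ => card_le_card (hC j)) (m1 _ hS')
    · exact sum_lt_sum (fun j _ => card_le_card (BB_mono (v2 j))) ⟨k, mem_range.2 hk, v3⟩
  have hex : ∀ x, ∃ k, w x ≤ k ∨ x ∈ BB lam G (θ k) := fun x => ⟨w x, Or.inl le_rfl⟩
  set w' : X → ℕ := fun x => Nat.find (hex x) with hw'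
  have hw'le : ∀ x k, w' x ≤ k ↔ (w x ≤ k ∨ x ∈ BB lam G (θ k)) := by
    intro x k
    refine ⟨fun h => ?_, fun h => Nat.find_min' _ h⟩
    rcases Nat.find_spec (hex x) with h1 | h1
    · exact Or.inl (h1.trans h)
    · exact Or.inr (BB_mono (hv.2.1 h) h1)
  have hww : ∀ x, w' x ≤ w x := fun x => (hw'le x _).2 (Or.inl le_rfl)
  have hcross : ∀ k, (univ.filter fun x => w' x ≤ k ∧ k < w x) = CC lam w G θ k := by
    intro k
    ext x
    simp only [mem_filter, mem_univ, true_and, hw'le, CC]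
    constructor
    · rintro ⟨h | h, h'⟩
      · omega
      · exact ⟨h, h'⟩
    · rintro ⟨h, h'⟩; exact ⟨Or.inr h, h'⟩
  have hcross' : ∀ k < J, (U.filter fun x => w' x ≤ k ∧ k < w x) = CC lam w G θ k := by
    intro k hk
    rw [← hcross]
    ext x
    simp only [mem_filter, mem_univ, true_and, and_iff_right_iff_imp]
    intro h
    exact hCU k hk (hcross k ▸ mem_filter.2 ⟨mem_univ _, h⟩)
  have hlt : ∀ x ∈ U, w' x < w x := by
    intro x hx
    obtain ⟨k, -, hk⟩ := mem_biUnion.1 hx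
    rw [← hcross] at hk
    have := (mem_filter.1 hk).2
    omega
  refine ⟨U, w', hU, ?_, fun x hx => ?_, hlt, ⟨G, θ, hv.1, hv.2.1, hv.2.2.1, fun k hk =>
    ⟨hsize k hk, fun x hx => (hw'le x k).2 (Or.inr hx), ?_⟩⟩, ?_⟩
  · rw [nonempty_iff_ne_empty]
    intro h0
    obtain ⟨k, hk, hk'⟩ := hbad G hv.1
    have h1 := hsize k hk
    rw [h0, card_empty, mul_zero, Nat.le_zero, card_eq_zero] at h1
    refine absurd (hv.2.2.2 k hk) (not_le.2 (lt_of_eq_of_lt ?_ hk'))
    refine sum_congr rfl fun x hx => ?_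
    rw [min_eq_left]
    by_contra h
    have : x ∈ BB lam G (θ k) := mem_filter.2 ⟨hx, not_le.1 h⟩
    rw [h1] at this; simp at this
  · by_contra h
    have h1 : w' x < w x := lt_of_le_of_ne (hww x) h
    exact hx (hCU (w' x) (h1.trans_le (hw x)) (hcross _ ▸ mem_filter.2 ⟨mem_univ _, le_rfl, h1⟩))
  · simp only
    rw [phi_diff lam G hww, hcross' k hk, hcross,
      inter_eq_left.2 (show CC lam w G θ k ⊆ G from (filter_subset _ _).trans (filter_subset _ _)),
      sum_congr rfl (g := fun _ => θ k) fun x hx =>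
        min_eq_right (mem_filter.1 (mem_filter.1 hx).1).2.le, sum_const, nsmul_eq_mul]
    linarith [hv.2.2.2 k hk]
  · rintro H' θ' ⟨a1, a2, a3, a4⟩
    have hC : ∀ k < J, CC lam w H' θ' k ⊆ CC lam w G θ k := by
      intro k hk x hx
      rw [← hcross]
      exact mem_filter.2 ⟨mem_univ _, (a4 k hk).2.1 x (mem_filter.1 hx).1, (mem_filter.1 hx).2⟩
    have hS' : (H', θ') ∈ S := by
      refine ⟨⟨a1, a2, a3, fun k hk => ?_⟩,
        (biUnion_mono fun j hj => hC j (mem_range.1 hj)).trans hU⟩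
      have b1 := (a4 k hk).2.2
      simp only at b1
      rw [phi_diff lam H' hww, hcross' k hk, hcross] at b1
      have b2 : ∑ x ∈ CC lam w G θ k ∩ H', min (lam H' x) (θ' k)
          ≤ (CC lam w G θ k).card * θ' k := by
        refine (sum_le_card_nsmul _ _ (θ' k) fun x _ => min_le_right _ _).trans ?_
        rw [nsmul_eq_mul]
        exact mul_le_mul_of_nonneg_right (by exact_mod_cast card_le_card inter_subset_left) (a3 k)
      simp only
      linarith
    have heq := (sum_eq_sum_iff_of_le fun j hj => card_le_card (hC j (mem_range.1 hj))).1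
      (le_antisymm (sum_le_sum fun j hj => card_le_card (hC j (mem_range.1 hj))) (m1 _ hS'))
    intro x hx
    have h1 := hlt x hx
    have h2 : w' x < J := h1.trans_le (hw x)
    have h3 := eq_of_subset_of_card_le (hC _ h2) (heq _ (mem_range.2 h2)).ge
    have h4 : x ∈ CC lam w G θ (w' x) := hcross _ ▸ mem_filter.2 ⟨mem_univ _, le_rfl, h1⟩
    rw [← h3] at h4
    exact (mem_filter.1 h4).1

end Vale.Agent.P034
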