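import Vale.Agent.P034.Count

open Finset

namespace Vale.Agent.P034

variable {X : Type} [Fintype X] [DecidableEq X]

lemma exists_levels {q : ℝ} (hq : 0 < q) : ∃ (J : ℕ) (π : ℕ → ℝ), (∀ i, 0 ≤ π i) ∧
    (∀ j < J, π j = 4 ^ j * q) ∧ (∀ j ≤ J, π j ≤ 4 ^ j * q) ∧ ∑ i ∈ range (J + 1), π i = 1 := by
  have hex : ∃ J : ℕ, 1 ≤ ∑ j ∈ range (J + 1), 4 ^ j * q := by
    obtain ⟨n, hn⟩ := pow_unbounded_of_one_lt (1 / q) (by norm_num : (1 : ℝ) < 4)
    refine ⟨n, le_trans ?_ (single_le_sum (f := fun j => (4 : ℝ) ^ j * q)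
      (fun _ _ => by positivity) (self_mem_range_succ n))⟩
    rw [div_lt_iff₀ hq] at hn; exact hn.le
  set J := Nat.find hex with hJ
  have h1 := Nat.find_spec hex
  rw [← hJ, sum_range_succ] at h1
  have h2 : ∑ j ∈ range J, 4 ^ j * q ≤ 1 := by
    rcases Nat.eq_zero_or_pos J with h | h
    · simp [h]
    · have := Nat.find_min hex (m := J - 1) (by omega)
      rw [Nat.sub_add_cancel h] at this
      exact (not_le.1 this).le
  refine ⟨J, fun j => if j < J then 4 ^ j * q else 1 - ∑ j ∈ range J, 4 ^ j * q, fun i => ?_,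
    fun j hj => if_pos hj, fun j hj => ?_, ?_⟩
  · dsimp only; split_ifs
    · positivity
    · linarith
  · dsimp only; split_ifs with h
    · exact le_rfl
    · obtain rfl : j = J := by omega
      linarith
  · rw [sum_range_succ, if_neg (lt_irrefl _), sum_congr rfl fun j hj => if_pos (mem_range.1 hj)]
    ring

/-- Vertex weights induced by a fractional cover. -/
noncomputable def lamOf (g : Finset X → ℝ) (H : Finset X) (x : X) : ℝ :=
  ∑ S ∈ H.powerset, if x ∈ S then g S / S.card else 0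

omit [Fintype X] in
lemma lam_sum (g : Finset X → ℝ) (H : Finset X) (f : X → ℝ) :
    ∑ x ∈ H, lamOf g H x * f x = ∑ S ∈ H.powerset, g S / S.card * ∑ x ∈ S, f x := by
  simp only [lamOf, sum_mul]
  rw [sum_comm]
  refine sum_congr rfl fun S hS => ?_
  rw [mul_sum, ← sum_subset (mem_powerset.1 hS) fun x _ hx => by simp [hx]]
  exact sum_congr rfl fun x hx => by rw [if_pos hx]

lemma good_large {g : Finset X → ℝ} (hg : ∀ S, 0 ≤ g S) (h0 : g ∅ ≤ 1 / 2) {H : Finset X}
    (hH : 1 ≤ ∑ S ∈ H.powerset, g S) {J : ℕ} {w : X → ℕ} (hw : ∀ x, w x ≤ J)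
    (h : ∀ k < J, 0 ≤ ∑ x ∈ H, lamOf g H x * ((1 / 2) ^ k - if k < w x then 1 else 0)) :
    1 / 4 ≤ ∑ S ∈ univ.erase ∅, g S * ∏ x ∈ S, (8 ^ 4 / 8 ^ w x : ℝ) := by
  have hl : ∀ x, 0 ≤ lamOf g H x := fun x => sum_nonneg fun S _ => by
    split_ifs
    · exact div_nonneg (hg S) (by positivity)
    · exact le_rfl
  have h1 : 0 ≤ ∑ x ∈ H, lamOf g H x * (2 - w x) := by
    refine (sum_nonneg fun k hk => h k (mem_range.1 hk)).trans ?_
    rw [sum_comm]
    refine sum_le_sum fun x _ => ?_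
    rw [← mul_sum, sum_sub_distrib]
    refine mul_le_mul_of_nonneg_left (sub_le_sub (sum_geometric_two_le _) ?_) (hl x)
    rw [sum_boole]
    have : (range J).filter (· < w x) = range (w x) := by
      ext k; have := hw x; simp only [mem_filter, mem_range]; omega
    rw [this, card_range]
  rw [lam_sum, ← add_sum_erase _ _ (empty_mem_powerset H)] at h1
  rw [← add_sum_erase _ _ (empty_mem_powerset H)] at hH
  simp only [sum_empty, mul_zero, zero_add] at h1
  have h2 : ∀ S ∈ H.powerset.erase ∅, g S / S.card * ∑ x ∈ S, (2 - w x : ℝ)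
      ≤ 4 * (g S * ∏ x ∈ S, (8 ^ 4 / 8 ^ w x : ℝ)) - 2 * g S := by
    intro S hS
    have hc : (0 : ℝ) < S.card := by
      exact_mod_cast (nonempty_iff_ne_empty.2 (mem_erase.1 hS).1).card_pos
    have hp : 0 ≤ g S * ∏ x ∈ S, (8 ^ 4 / 8 ^ w x : ℝ) :=
      mul_nonneg (hg S) (prod_nonneg fun _ _ => by positivity)
    rw [sum_sub_distrib, sum_const, nsmul_eq_mul, ← Nat.cast_sum]
    have hgd : 0 ≤ g S / S.card := div_nonneg (hg S) hc.le
    have e : g S / S.card * S.card = g S := div_mul_cancel₀ _ hc.ne'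
    rcases le_total (∑ x ∈ S, w x) (4 * S.card) with h3 | h3
    · have h4 : (1 : ℝ) ≤ ∏ x ∈ S, (8 ^ 4 / 8 ^ w x : ℝ) := by
        rw [prod_div_distrib, prod_const, prod_pow_eq_pow_sum, ← pow_mul, one_le_div (by positivity)]
        exact pow_le_pow_right₀ (by norm_num) h3
      have h5 := mul_le_mul_of_nonneg_left h4 (hg S)
      have h6 : 0 ≤ g S / S.card * ((∑ x ∈ S, w x : ℕ) : ℝ) := by positivity
      nlinarith
    · have h4 : (4 * S.card : ℝ) ≤ ((∑ x ∈ S, w x : ℕ) : ℝ) := by exact_mod_cast h3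
      have h5 := mul_le_mul_of_nonneg_left h4 hgd
      nlinarith
  have h3 := sum_le_sum h2
  rw [sum_sub_distrib, ← mul_sum, ← mul_sum] at h3
  have h4 : ∑ S ∈ H.powerset.erase ∅, g S * ∏ x ∈ S, (8 ^ 4 / 8 ^ w x : ℝ)
      ≤ ∑ S ∈ univ.erase ∅, g S * ∏ x ∈ S, (8 ^ 4 / 8 ^ w x : ℝ) :=
    sum_le_sum_of_subset_of_nonneg (erase_subset_erase _ (subset_univ _)) fun S _ _ =>
      mul_nonneg (hg S) (prod_nonneg fun _ _ => by positivity)
  linarith

lemma expect_prod {J : ℕ} {π : ℕ → ℝ} (hπ1 : ∑ i ∈ range (J + 1), π i = 1) (h : ℕ → ℝ)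
    (S : Finset X) :
    ∑ w ∈ Fintype.piFinset fun _ : X => range (J + 1), (∏ x, π (w x)) * ∏ x ∈ S, h (w x)
      = (∑ i ∈ range (J + 1), π i * h i) ^ S.card := by
  have e : ∀ w : X → ℕ, (∏ x, π (w x)) * ∏ x ∈ S, h (w x)
      = ∏ x, (π (w x) * if x ∈ S then h (w x) else 1) := by
    intro w
    rw [prod_mul_distrib, prod_ite_mem, univ_inter]
  simp only [e]
  rw [← prod_univ_sum (fun _ : X => range (J + 1)) fun x i => π i * if x ∈ S then h i else 1,
    ← prod_const, ← univ_inter S, ← prod_ite_mem, univ_inter]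
  refine prod_congr rfl fun x _ => ?_
  split_ifs
  · rfl
  · simpa using hπ1

theorem rounding {F : Finset (Finset X)} {g : Finset X → ℝ} (hg : ∀ S, 0 ≤ g S)
    (hF : ∀ H ∈ F, 1 ≤ ∑ S ∈ H.powerset, g S) {p : ℝ} (hp : 0 < p)
    (hw : ∑ S, g S * p ^ S.card ≤ 1 / 2) :
    ∃ G : Finset (Finset X), (∀ H ∈ F, ∃ S ∈ G, S ⊆ H) ∧
      ∑ S ∈ G, (p / 1572864) ^ S.card ≤ 1 / 2 := by
  classical
  obtain ⟨J, π, π0, π1, π2, π3⟩ := exists_levels (q := p / 65536) (by positivity)
  have hgp : ∀ S, 0 ≤ g S * p ^ S.card := fun S => mul_nonneg (hg S) (by positivity)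
  have h0 : g ∅ ≤ 1 / 2 := by
    have := single_le_sum (f := fun S => g S * p ^ S.card) (fun S _ => hgp S) (mem_univ ∅)
    simp only [card_empty, pow_zero, mul_one] at this
    linarith
  have hl : ∀ H x, 0 ≤ lamOf g H x := fun H x => sum_nonneg fun S _ => by
    split_ifs
    · exact div_nonneg (hg S) (by positivity)
    · exact le_rfl
  set Ω := Fintype.piFinset fun _ : X => range (J + 1) with hΩ
  have hΩ' : ∀ w ∈ Ω, ∀ x, w x ≤ J := fun w hw x =>
    Nat.le_of_lt_succ (mem_range.1 (Fintype.mem_piFinset.1 hw x))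
  set P : (X → ℕ) → ℝ := fun w => ∏ x, π (w x) with hP
  have hP0 : ∀ w, 0 ≤ P w := fun w => prod_nonneg fun _ _ => π0 _
  set bad : (X → ℕ) → Prop := fun w => ∀ H ∈ F, ∃ k < J,
    ∑ x ∈ H, lamOf g H x * ((1 / 2) ^ k - if k < w x then 1 else 0) < 0 with hbad
  have hgood : ∑ w ∈ Ω.filter fun w => ¬ bad w, P w ≤ 1 / 4 := by
    set Y : (X → ℕ) → ℝ := fun w => ∑ S ∈ univ.erase ∅, g S * ∏ x ∈ S, (8 ^ 4 / 8 ^ w x : ℝ)
    have hY0 : ∀ w, 0 ≤ Y w := fun w => sum_nonneg fun S _ =>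
      mul_nonneg (hg S) (prod_nonneg fun _ _ => by positivity)
    have h1 : ∑ w ∈ Ω.filter fun w => ¬ bad w, P w * (1 / 4) ≤ ∑ w ∈ Ω, P w * Y w := by
      refine (sum_le_sum fun w hw => mul_le_mul_of_nonneg_left ?_ (hP0 w)).trans
        (sum_le_sum_of_subset_of_nonneg (filter_subset _ _) fun w _ _ => mul_nonneg (hP0 w) (hY0 w))
      obtain ⟨a1, a2⟩ := mem_filter.1 hw
      simp only [hbad] at a2
      push Not at a2
      obtain ⟨H, hH, h⟩ := a2
      exact good_large hg h0 (hF H hH) (hΩ' w a1) h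
    have h2 : ∑ i ∈ range (J + 1), π i * (8 ^ 4 / 8 ^ i) ≤ p / 8 := by
      refine (sum_le_sum (g := fun i => p / 16 * (1 / 2) ^ i) fun i hi => ?_).trans ?_
      · refine (mul_le_mul_of_nonneg_right (π2 i (Nat.le_of_lt_succ (mem_range.1 hi)))
          (by positivity)).trans (le_of_eq ?_)
        rw [show (8 : ℝ) ^ i = 4 ^ i * 2 ^ i by rw [← mul_pow]; norm_num, one_div_pow]
        field_simp; norm_num
      · rw [← mul_sum]
        have := sum_geometric_two_le (J + 1)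
        nlinarith
    have h3 : ∑ w ∈ Ω, P w * Y w ≤ 1 / 16 := by
      simp only [Y, mul_sum]
      rw [sum_comm]
      refine (sum_le_sum (g := fun S => 1 / 8 * (g S * p ^ S.card)) fun S hS => ?_).trans ?_
      · simp only [mul_left_comm (P _), ← mul_sum]
        rw [hΩ, expect_prod π3 (fun i => 8 ^ 4 / 8 ^ i) S, mul_left_comm]
        refine mul_le_mul_of_nonneg_left ((pow_le_pow_left₀ (sum_nonneg fun i _ =>
          mul_nonneg (π0 i) (by positivity)) h2 _).trans ?_) (hg S)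
        rw [div_pow, one_div_mul_eq_div]
        refine div_le_div_of_nonneg_left (by positivity) (by norm_num) (le_self_pow₀ (by norm_num) ?_)
        exact (nonempty_iff_ne_empty.2 (mem_erase.1 hS).1).card_pos.ne'
      · rw [← mul_sum]
        have := sum_le_sum_of_subset_of_nonneg (f := fun S => g S * p ^ S.card)
          (erase_subset ∅ (univ : Finset (Finset X))) fun S _ _ => hgp S
        linarith
    rw [← sum_mul] at h1
    linarith
  have htot : ∑ w ∈ Ω, P w = 1 := by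
    have := expect_prod (X := X) π3 (fun _ => 1) ∅
    simpa using this
  have hbadP : 3 / 4 ≤ ∑ w ∈ Ω.filter bad, P w := by
    have := sum_filter_add_sum_filter_not Ω bad P
    linarith
  have hex : ∀ w H, ∃ U : Finset X, w ∈ Ω.filter bad → H ∈ F →
      U ⊆ H ∧ ∃ w', Enc F (lamOf g) J w U w' := by
    intro w H
    by_cases h : w ∈ Ω.filter bad ∧ H ∈ F
    · obtain ⟨U, w', h1, h2⟩ := fragment hl (hΩ' w (mem_filter.1 h.1).1) (mem_filter.1 h.1).2 h.2
      exact ⟨U, fun _ _ => ⟨h1, w', h2⟩⟩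
    · exact ⟨∅, fun a b => absurd ⟨a, b⟩ h⟩
  choose U hU using hex
  have hex2 : ∀ d : (X → ℕ) × Finset X, ∃ w', (∃ w', Enc F (lamOf g) J d.1 d.2 w') →
      Enc F (lamOf g) J d.1 d.2 w' := by
    intro d
    by_cases h : ∃ w', Enc F (lamOf g) J d.1 d.2 w'
    · exact ⟨h.choose, fun _ => h.choose_spec⟩
    · exact ⟨d.1, fun h' => absurd h' h⟩
  choose W hW using hex2
  have key := count_all (F := F) (lam := lamOf g) π0 (fun j hj => by rw [π1 j hj]; positivity) π3
    (r := p / 1572864) (by positivity) (by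
      refine (sum_le_sum (g := fun i => 1 / 24 * (1 / 2) ^ i) fun i hi => le_of_eq ?_).trans ?_
      · rw [π1 i (mem_range.1 hi), show (4 : ℝ) ^ i = 2 ^ i * 2 ^ i by rw [← mul_pow]; norm_num,
          one_div_pow]
        field_simp; norm_num
      · rw [← mul_sum]
        have := sum_geometric_two_le J
        linarith)
    ((Ω.filter bad ×ˢ univ).filter fun d => d.2 ∈ F.image (U d.1)) W (by
      rintro ⟨w, V⟩ hd
      obtain ⟨a1, a2⟩ := mem_filter.1 hd
      have a3 := (mem_product.1 a1).1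
      dsimp only at a2 a3
      obtain ⟨H, hH, rfl⟩ := mem_image.1 a2
      exact ⟨hΩ' w (mem_filter.1 a3).1, hW _ (hU w H a3 hH).2⟩)
  rw [sum_filter, sum_product] at key
  by_contra hc
  push Not at hc
  have h1 : ∑ w ∈ Ω.filter bad, P w * (1 / 2) ≤ 1 / 3 := by
    refine le_trans (sum_le_sum fun w hw => ?_) key
    rw [← sum_filter]
    dsimp only
    rw [filter_mem_eq_inter, univ_inter, ← mul_sum]
    exact mul_le_mul_of_nonneg_left (hc _ fun H hH =>
      ⟨U w H, mem_image_of_mem _ hH, (hU w H hw hH).1⟩).le (hP0 w)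
  rw [← sum_mul] at h1
  linarith

end Vale.Agent.P034
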